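import Vale.Agent.P240.R2.H687.TDefs

/-!
Row (T4) of `H687/TDefs`: no semilinear map of order divisible by `3` commutes with a linear map of
order `l`.

Let `K₀` be the fixed field of `σ`, `|K₀| = q₀`. An `s`-invariant `K₀`-subspace of `W` has `q₀ ^ k`
elements, and `l ∣ q₀ ^ k - 1`, so it is `0` or `W`. By Schur and Wedderburn the commutant of `s` in
`End_{K₀} W` is commutative; it contains `g` and `K`.
-/

set_option autoImplicit false
set_option linter.all false

namespace Vale.Agent.P240.R2.H850.T

open Vale.Agent.P240.R2.H687.T

universe u v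

/-- the commutant of `s` has no zero divisors, so it is commutative -/
theorem comm_of {F : Type u} [Field F] [Finite F] {W : Type v} [AddCommGroup W] [Module F W]
    [Finite W] [Nontrivial W] (s : Module.End F W)
    (h : ∀ U : Submodule F W, (∀ v ∈ U, s v ∈ U) → U = ⊥ ∨ U = ⊤)
    (a b : Module.End F W) (ha : s * a = a * s) (hb : s * b = b * s) : a * b = b * a := by
  classical
  let A : Subring (Module.End F W) := Subring.centralizer {s}
  have hA : ∀ x, x ∈ A ↔ s * x = x * s := by
    intro x
    simp only [A, Subring.mem_centralizer_iff, Set.mem_singleton_iff, forall_eq]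
  have hinj : ∀ x : Module.End F W, s * x = x * s → x ≠ 0 → Function.Injective x := by
    intro x hx hx0
    rcases h (LinearMap.ker x) (fun v hv => by
      rw [LinearMap.mem_ker] at hv ⊢
      have := congrArg (fun y : Module.End F W => y v) hx
      simp only [Module.End.mul_apply] at this
      rw [← this, hv, map_zero]) with h1 | h1
    · exact LinearMap.ker_eq_bot.1 h1
    · exact absurd (LinearMap.ker_eq_top.1 h1) hx0
  haveI : Finite (Module.End F W) := Finite.of_injective (fun x : Module.End F W => (x : W → W))
    DFunLike.coe_injective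
  haveI : Finite A := inferInstance
  haveI : NoZeroDivisors A := ⟨by
    rintro ⟨x, hx⟩ ⟨y, hy⟩ hxy
    rw [hA] at hx hy
    by_cases hx0 : x = 0
    · left
      exact Subtype.ext hx0
    · right
      have hi := hinj x hx hx0
      apply Subtype.ext
      show y = 0
      ext v
      have h1 : x * y = 0 := congrArg Subtype.val hxy
      have h2 := congrArg (fun z : Module.End F W => z v) h1
      simp only [Module.End.mul_apply, LinearMap.zero_apply] at h2
      exact hi (by rw [h2, LinearMap.zero_apply, map_zero])⟩
  haveI : IsDomain A := NoZeroDivisors.to_isDomain A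
  have hf := Finite.isDomain_to_isField A
  have := hf.mul_comm ⟨a, (hA a).2 ha⟩ ⟨b, (hA b).2 hb⟩
  exact congrArg Subtype.val this

theorem stmtSemi : StmtSemi.{u, v} := by
  intro K _ _ W _ _ _ hW σ hσ hσ3 g hadd hsm c hc hg3 s l hl hsl hfix hcomm _ hdiv
  classical
  have hord : orderOf (σ : RingAut K) = 3 := by
    haveI : Fact (Nat.Prime 3) := ⟨Nat.prime_three⟩
    refine orderOf_eq_prime ?_ ?_
    · ext k
      exact hσ3 k
    · intro h
      obtain ⟨k, hk⟩ := hσ
      exact hk (by rw [h]; rfl)
  let G : Subgroup (RingAut K) := Subgroup.zpowers (σ : RingAut K)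
  haveI : Finite G := by
    have : IsOfFinOrder (σ : RingAut K) := by
      rw [← orderOf_pos_iff, hord]
      norm_num
    exact Nat.finite_of_card_ne_zero (by rw [Nat.card_zpowers, hord]; norm_num)
  haveI : Fintype G := Fintype.ofFinite G
  let F := FixedPoints.subfield G K
  have h3 : Module.finrank F K = 3 := by
    rw [FixedPoints.finrank_eq_card, ← Nat.card_eq_fintype_card, Nat.card_zpowers, hord]
  have hF : ∀ k : F, σ (k : K) = k := by
    intro k
    have := k.2 ⟨σ, Subgroup.mem_zpowers _⟩
    exact this
  haveI : Finite F := inferInstance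
  have hq : Nat.card K = Nat.card F ^ 3 := by
    rw [Module.natCard_eq_pow_finrank (K := F) (V := K), h3]
  have h12 : Module.finrank F W = 12 := by
    rw [← Module.finrank_mul_finrank F K W, h3, hW]
  haveI : Nontrivial W := Module.nontrivial_of_finrank_pos (R := K) (by rw [hW]; norm_num)
  have hg0 : ∀ v, g v = 0 → v = 0 := by
    intro v hv
    have h0 : g 0 = 0 := by
      have := hadd 0 0
      simpa using this
    have h1 := hg3 v
    rw [hv, h0, h0] at h1
    exact (smul_eq_zero.1 h1.symm).resolve_left hc
  -- the linear maps over the fixed field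
  let sF : Module.End F W := s.restrictScalars F
  let gF : Module.End F W :=
    { toFun := g
      map_add' := hadd
      map_smul' := by
        intro k v
        have := hsm (k : K) v
        rw [hF k] at this
        exact this }
  let kF : K → Module.End F W := fun k => (LinearMap.lsmul K W k).restrictScalars F
  have hirr : ∀ U : Submodule F W, (∀ v ∈ U, sF v ∈ U) → U = ⊥ ∨ U = ⊤ := by
    intro U hU
    haveI : Fact l.Prime := ⟨hl⟩
    let f : Function.End U := fun x => ⟨s x.1, hU x.1 x.2⟩
    have hfn : ∀ (n : ℕ) (x : U), ((f ^ n) x : W) = (s ^ n) (x : W) := by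
      intro n
      induction n with
      | zero => intro x; rfl
      | succ n ih =>
        intro x
        rw [pow_succ', pow_succ']
        show s ((f ^ n) x : W) = s ((s ^ n) (x : W))
        rw [ih]
    have hf1 : f ^ l ^ 1 = 1 := by
      rw [pow_one]
      funext x
      apply Subtype.ext
      rw [hfn]
      exact hsl x
    haveI : Fintype U := Fintype.ofFinite U
    have hmod := Equiv.Perm.card_fixedPoints_modEq hf1
    have hfp : Fintype.card (Function.fixedPoints f) = 1 := by
      rw [Fintype.card_eq_one_iff]
      refine ⟨⟨0, ?_⟩, ?_⟩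
      · show f 0 = 0
        apply Subtype.ext
        exact map_zero s
      · rintro ⟨x, hx⟩
        apply Subtype.ext
        apply Subtype.ext
        show (x : W) = 0
        exact hfix x (congrArg Subtype.val hx)
    rw [hfp] at hmod
    have hcard : Fintype.card U = Nat.card F ^ Module.finrank F U := by
      rw [← Nat.card_eq_fintype_card, Module.natCard_eq_pow_finrank (K := F) (V := U)]
    have hle : Module.finrank F U ≤ 12 := h12 ▸ Submodule.finrank_le U
    have hd : l ∣ Nat.card F ^ Module.finrank F U - 1 := by
      rw [← hcard]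
      exact (Nat.modEq_iff_dvd' (Fintype.card_pos)).1 hmod.symm
    rcases Nat.eq_zero_or_pos (Module.finrank F U) with h0 | h0
    · left
      exact Submodule.finrank_eq_zero.1 h0
    · right
      rcases lt_or_eq_of_le hle with h1 | h1
      · exact absurd hd (hdiv _ hq _ h0 h1)
      · exact Submodule.eq_top_of_finrank_eq (by rw [h1, h12])
  obtain ⟨k, hk⟩ := hσ
  have hcom := comm_of sF hirr gF (kF k) (by
    ext v
    exact hcomm v) (by
    ext v
    exact map_smul s k v)
  obtain ⟨v, hv⟩ := exists_ne (0 : W)
  have h1 : g (k • v) = k • g v := congrArg (fun z : Module.End F W => z v) hcom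
  rw [hsm] at h1
  have h2 : (σ k - k) • g v = 0 := by
    rw [sub_smul, h1, sub_self]
  rcases smul_eq_zero.1 h2 with h4 | h4
  · exact hk (sub_eq_zero.1 h4)
  · exact hv (hg0 v h4)

end Vale.Agent.P240.R2.H850.T
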